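import Vale.Agent.P004G.H871.Mel
import Vale.Agent.P004.K2

/-!
# P004G, package G8 (c): the order of vanishing at `1`
-/

open Complex Filter Set MeasureTheory
open scoped Topology

namespace P004G
namespace Rk

variable {A : ℕ → ℤ} {q κ : ℝ}

lemma PhiA_bound (hA : LD A) (hF : FEq A q κ) {s : ℂ} (h1 : 1 ≤ s.re) (h9 : s.re ≤ 9) :
    ‖PhiA A s‖ ≤ 2 * KK 12 * (1 + q) ^ 3 := by
  have hq := hF.1
  have hconv := PhiA_conv hA hF s
  unfold MellinConvergent at hconv
  have hK := KK_ge 12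
  have hK6 := KK_ge 6
  have hK' : KK 6 ≤ KK 12 := KK_mono (by norm_num)
  have hnorm : ∀ u : ℝ, 0 < u → ‖(u : ℂ) ^ (s - 1) • ((TH A u : ℝ) : ℂ)‖ =
      u ^ (s.re - 1) * |TH A u| := by
    intro u hu
    rw [norm_smul, norm_cpow_eq_rpow_re_of_pos hu, Complex.norm_real, Real.norm_eq_abs]
    simp
  have hdis : Disjoint (Ioc (0 : ℝ) 1) (Ioi (1 : ℝ)) :=
    Set.disjoint_left.2 fun x h1 h2 => absurd h1.2 (not_le.2 h2)
  unfold PhiA mellin
  rw [← Ioc_union_Ioi_eq_Ioi (zero_le_one (α := ℝ)),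
    setIntegral_union hdis measurableSet_Ioi (hconv.mono_set Ioc_subset_Ioi_self)
      (hconv.mono_set (Ioi_subset_Ioi zero_le_one))]
  refine (norm_add_le _ _).trans ?_
  have p1 : ‖∫ u in Ioc (0 : ℝ) 1, (u : ℂ) ^ (s - 1) • ((TH A u : ℝ) : ℂ)‖ ≤
      KK 6 * (1 + q) ^ 3 := by
    have h := norm_setIntegral_le_of_norm_le_const (μ := volume) (s := Ioc (0 : ℝ) 1)
      (f := fun u : ℝ => (u : ℂ) ^ (s - 1) • ((TH A u : ℝ) : ℂ)) (C := KK 6 * (1 + q) ^ 3)
      (by simp) ?_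
    · simpa using h
    · intro u hu
      rw [hnorm u hu.1]
      have h2 : u ^ (s.re - 1) ≤ 1 := Real.rpow_le_one hu.1.le hu.2 (by linarith)
      calc u ^ (s.re - 1) * |TH A u| ≤ 1 * (KK 6 * (1 + q) ^ 3) := by
            apply mul_le_mul h2 (TH_unif hA hF hu.1) (abs_nonneg _) zero_le_one
        _ = _ := one_mul _
  have i4 : IntegrableOn (fun u : ℝ => KK 12 * u ^ (-4 : ℝ)) (Ioi 1) :=
    (integrableOn_Ioi_rpow_of_lt (by norm_num) one_pos).const_mul _
  have p2 : ‖∫ u in Ioi (1 : ℝ), (u : ℂ) ^ (s - 1) • ((TH A u : ℝ) : ℂ)‖ ≤ KK 12 * (1 / 3) := by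
    have h := norm_integral_le_of_norm_le (μ := volume.restrict (Ioi (1 : ℝ)))
      (f := fun u : ℝ => (u : ℂ) ^ (s - 1) • ((TH A u : ℝ) : ℂ)) i4 ?_
    · refine h.trans (le_of_eq ?_)
      rw [integral_const_mul, integral_Ioi_rpow_of_lt (by norm_num) one_pos]
      norm_num
    · filter_upwards [ae_restrict_mem measurableSet_Ioi] with u hu
      have hu1 : (1 : ℝ) < u := hu
      have hu0 : 0 < u := by linarith
      rw [hnorm u hu0]
      have h2 : u ^ (s.re - 1) ≤ u ^ (8 : ℝ) :=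
        Real.rpow_le_rpow_of_exponent_le hu1.le (by linarith)
      have h3 := TH_le hA (k := 12) (by norm_num) hu0
      calc u ^ (s.re - 1) * |TH A u| ≤ u ^ (8 : ℝ) * (KK 12 / u ^ 12) := by
            apply mul_le_mul h2 h3 (abs_nonneg _) (by positivity)
        _ = KK 12 * u ^ (-4 : ℝ) := by
            rw [show (-4 : ℝ) = 8 - 12 by norm_num, Real.rpow_sub hu0]
            have : u ^ (12 : ℝ) = u ^ 12 := by norm_cast
            rw [this]
            ring
  have hq3 : 1 ≤ (1 + q) ^ 3 := one_le_pow₀ (by linarith)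
  have h5 : KK 6 * (1 + q) ^ 3 ≤ KK 12 * (1 + q) ^ 3 := by gcongr
  have h6 : KK 12 * (1 / 3) ≤ KK 12 * (1 + q) ^ 3 := by
    apply mul_le_mul_of_nonneg_left _ (by linarith)
    linarith
  linarith

/-! ### the value at `5` -/

lemma sum_cube : ∑' n : ℕ, 1 / ((n : ℝ) + 2) ^ 3 ≤ 1 / 2 := by
  refine Real.tsum_le_of_sum_range_le (fun k => by positivity) (fun K => ?_)
  have h : ∑ k ∈ Finset.range K, 1 / ((k : ℝ) + 2) ^ 3 ≤ 1 / 2 * (1 - 1 / ((K : ℝ) + 1)) := by
    induction K with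
    | zero => simp
    | succ K ih =>
      rw [Finset.sum_range_succ]
      have h1 : 1 / ((K : ℝ) + 2) ^ 3 ≤
          1 / 2 * (1 - 1 / (((K + 1 : ℕ) : ℝ) + 1)) - 1 / 2 * (1 - 1 / ((K : ℝ) + 1)) := by
        have hK : (0 : ℝ) ≤ K := Nat.cast_nonneg K
        have e : 1 / 2 * (1 - 1 / (((K + 1 : ℕ) : ℝ) + 1)) - 1 / 2 * (1 - 1 / ((K : ℝ) + 1)) =
            1 / (2 * (((K : ℝ) + 1) * ((K : ℝ) + 2))) := by
          push_cast
          field_simp
          ring
        rw [e]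
        apply one_div_le_one_div_of_le (by positivity)
        nlinarith [mul_nonneg hK hK, mul_nonneg hK (mul_nonneg hK hK)]
      linarith
  refine h.trans ?_
  have : 0 ≤ 1 / ((K : ℝ) + 1) := by positivity
  linarith

lemma series_five (hA : LD A) : 1 / 2 ≤ ‖∑' n : ℕ, (A n : ℂ) / (n : ℂ) ^ (5 : ℂ)‖ := by
  have hsum : Summable (fun n : ℕ => (A n : ℂ) / (n : ℂ) ^ (5 : ℂ)) := by
    refine Summable.of_norm_bounded (summable_dir hA (σ := 5) (by norm_num)) fun n => ?_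
    rcases Nat.eq_zero_or_pos n with rfl | hn
    · rw [hA.zero]; simp
    · rw [norm_div, Complex.norm_intCast, Complex.norm_natCast_cpow_of_pos hn]
      simp
  rw [hsum.tsum_eq_zero_add, (((summable_nat_add_iff 1).2 hsum)).tsum_eq_zero_add]
  have e0 : (A 0 : ℂ) / ((0 : ℕ) : ℂ) ^ (5 : ℂ) = 0 := by rw [hA.zero]; simp
  have e1 : (A (0 + 1) : ℂ) / ((0 + 1 : ℕ) : ℂ) ^ (5 : ℂ) = 1 := by
    rw [zero_add, hA.one]; simp
  rw [e0, e1, zero_add]
  have hb : ∀ n : ℕ, ‖(A (n + 1 + 1) : ℂ) / ((n + 1 + 1 : ℕ) : ℂ) ^ (5 : ℂ)‖ ≤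
      1 / ((n : ℝ) + 2) ^ 3 := by
    intro n
    rw [norm_div, Complex.norm_intCast, Complex.norm_natCast_cpow_of_pos (by omega)]
    have h1 := A_le_sq hA (n + 1 + 1)
    have e2 : ((n + 1 + 1 : ℕ) : ℝ) = (n : ℝ) + 2 := by push_cast; ring
    rw [e2] at h1 ⊢
    have h0 : (0 : ℝ) < (n : ℝ) + 2 := by positivity
    have e3 : ((n : ℝ) + 2) ^ (5 : ℂ).re = ((n : ℝ) + 2) ^ 5 := by
      simp only [Complex.re_ofNat]
      norm_cast
    rw [e3, div_le_div_iff₀ (by positivity) (by positivity)]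
    calc |(A (n + 1 + 1) : ℝ)| * ((n : ℝ) + 2) ^ 3 ≤ ((n : ℝ) + 2) ^ 2 * ((n : ℝ) + 2) ^ 3 := by
          gcongr
      _ = 1 * ((n : ℝ) + 2) ^ 5 := by ring
  have hs3 : Summable (fun n : ℕ => 1 / ((n : ℝ) + 2) ^ 3) := by
    have h := (summable_nat_add_iff 2).2 (Real.summable_one_div_nat_pow (p := 3).2 (by norm_num))
    refine h.congr fun n => ?_
    push_cast
    rfl
  have h4 := (tsum_of_norm_bounded hs3.hasSum hb).trans sum_cube
  have h5 := norm_sub_le_norm_add (1 : ℂ)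
    (∑' n : ℕ, (A (n + 1 + 1) : ℂ) / ((n + 1 + 1 : ℕ) : ℂ) ^ (5 : ℂ))
  rw [norm_one] at h5
  linarith

lemma PhiA_five (hA : LD A) : 1 / 10 ≤ ‖PhiA A 5‖ := by
  have h1 := (PhiA_series hA (s := 5) (by norm_num)).tsum_eq
  rw [← h1, tsum_mul_left, norm_mul, norm_mul, norm_mul]
  have h3 : ‖Complex.Gamma 5‖ = 24 := by
    have : Complex.Gamma 5 = 24 := by
      have h := Complex.Gamma_nat_eq_factorial 4
      have e : ((4 : ℕ) : ℂ) + 1 = 5 := by norm_num
      rw [e] at h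
      rw [h]
      norm_num [Nat.factorial]
    rw [this]; simp
  have h4 : ‖(Real.pi : ℂ) ^ (-5 : ℂ)‖ = 1 / Real.pi ^ 5 := by
    rw [norm_cpow_eq_rpow_re_of_pos Real.pi_pos]
    have : ((-5 : ℂ)).re = -5 := by norm_num
    rw [this, Real.rpow_neg Real.pi_pos.le, one_div]
    norm_cast
  have h5 : ‖(4 : ℂ)‖ = 4 := by simp
  rw [h3, h4, h5]
  have h6 := series_five hA
  have hpi : Real.pi ^ 5 ≤ 480 := by
    have h8 := Real.pi_lt_d2
    have h9 := Real.pi_pos
    calc Real.pi ^ 5 ≤ 3.15 ^ 5 := by gcongr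
      _ ≤ 480 := by norm_num
  have h8 : 1 / 480 ≤ 1 / Real.pi ^ 5 := one_div_le_one_div_of_le (by positivity) hpi
  calc (1 / 10 : ℝ) = 4 * 24 * (1 / 480) * (1 / 2) := by norm_num
    _ ≤ 4 * 24 * (1 / Real.pi ^ 5) * ‖∑' n : ℕ, (A n : ℂ) / (n : ℂ) ^ (5 : ℂ)‖ := by gcongr

/-! ### comparison with `L` -/

/-- the factor between the completed and the Hasse-Weil `L`-function -/
noncomputable def hf (s : ℂ) : ℂ := (Real.pi : ℂ) ^ s * (Complex.Gamma s)⁻¹ / 4

theorem pi_ne : (Real.pi : ℂ) ≠ 0 := by exact_mod_cast Real.pi_ne_zero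

theorem hf_diff : Differentiable ℂ hf := by
  unfold hf
  refine Differentiable.div_const (Differentiable.mul ?_ Complex.differentiable_one_div_Gamma) _
  intro s
  exact DifferentiableAt.const_cpow differentiableAt_id (Or.inl pi_ne)

theorem hf_mul {s : ℂ} (hs : 0 < s.re) :
    4 * Complex.Gamma s * (Real.pi : ℂ) ^ (-s) * hf s = 1 := by
  unfold hf
  have hG := Complex.Gamma_ne_zero_of_re_pos hs
  have hp : (Real.pi : ℂ) ^ s ≠ 0 := by
    rw [Ne, Complex.cpow_eq_zero_iff]; intro h; exact pi_ne h.1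
  rw [Complex.cpow_neg]
  field_simp

theorem hf_ne {s : ℂ} (hs : 0 < s.re) : hf s ≠ 0 := by
  intro h
  have := hf_mul hs
  rw [h, mul_zero] at this
  exact zero_ne_one this

lemma L_eq (hA : LD A) (hF : FEq A q κ) {L : ℂ → ℂ} (hL : IsL A L) :
    L = fun s => PhiA A s * hf s := by
  have h1 : AnalyticOnNhd ℂ L univ := fun z _ => hL.1.analyticAt z
  have h2 : AnalyticOnNhd ℂ (fun s => PhiA A s * hf s) univ :=
    fun z _ => ((PhiA_diff hA hF).mul hf_diff).analyticAt z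
  refine h1.eq_of_eventuallyEq h2 (z₀ := 4) ?_
  have hopen : IsOpen {s : ℂ | 3 < s.re} := isOpen_lt continuous_const Complex.continuous_re
  filter_upwards [hopen.mem_nhds (show (4 : ℂ) ∈ {s : ℂ | 3 < s.re} by
    simp only [mem_ofPred_eq, Complex.re_ofNat]; norm_num)] with s hs
  have hs3 : 3 < s.re := hs
  rw [hL.2 s (by linarith), ← (PhiA_series hA hs3).tsum_eq, tsum_mul_left]
  have := hf_mul (s := s) (by linarith)
  calc (∑' n : ℕ, (A n : ℂ) / (n : ℂ) ^ s)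
      = (4 * Complex.Gamma s * (Real.pi : ℂ) ^ (-s) * hf s) *
          (∑' n : ℕ, (A n : ℂ) / (n : ℂ) ^ s) := by rw [this, one_mul]
    _ = _ := by ring

lemma order_eq (hA : LD A) (hF : FEq A q κ) {L : ℂ → ℂ} (hL : IsL A L) :
    analyticOrderAt L 1 = analyticOrderAt (PhiA A) 1 := by
  rw [L_eq hA hF hL]
  have h1 := analyticOrderAt_mul ((PhiA_diff hA hF).analyticAt 1) (hf_diff.analyticAt 1)
  have h2 : analyticOrderAt hf 1 = 0 :=
    (hf_diff.analyticAt 1).analyticOrderAt_eq_zero.mpr (hf_ne (by simp))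
  rw [h2, add_zero] at h1
  exact h1

lemma order_ne_top {L : ℂ → ℂ} (h : Differentiable ℂ L) {z : ℂ} (hz : L z ≠ 0) :
    analyticOrderAt L 1 ≠ ⊤ := by
  intro htop
  rw [analyticOrderAt_eq_top] at htop
  have h1 : AnalyticOnNhd ℂ L univ := fun z _ => h.analyticAt z
  have h2 : AnalyticOnNhd ℂ (fun _ : ℂ => (0 : ℂ)) univ := fun z _ => analyticAt_const
  have := h1.eq_of_eventuallyEq h2 (z₀ := 1) htop
  exact hz (by rw [this])

lemma order_PhiA (hA : LD A) (hF : FEq A q κ) : analyticOrderAt (PhiA A) 1 ≠ ⊤ := by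
  refine order_ne_top (PhiA_diff hA hF) (z := 5) ?_
  intro h0
  have h5 := PhiA_five hA
  rw [h0, norm_zero] at h5
  norm_num at h5

end Rk

/-- Module L4. -/
theorem pfLrank : StLrank := by
  obtain ⟨C, hC, hord⟩ := P004.pfOrd
  set M : ℝ := Real.log (20 * Rk.KK 12) + 6 with hM
  have hK := Rk.KK_ge 12
  have hM0 : 0 ≤ Real.log (20 * Rk.KK 12) := Real.log_nonneg (by linarith)
  have hM6 : 6 ≤ M := by linarith
  refine ⟨C * M, by nlinarith, fun A q κ L hA hF hL => ?_⟩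
  have htop := Rk.order_PhiA hA hF
  rw [analyticOrderNatAt, Rk.order_eq hA hF hL]
  refine ⟨htop, ?_⟩
  set a : ℕ := (analyticOrderAt (Rk.PhiA A) 1).toNat with ha
  have hale : (a : ℕ∞) ≤ analyticOrderAt (Rk.PhiA A) 1 := by
    rw [ha, ENat.natCast_toNat htop]
  have hq := hF.1
  set l : ℝ := Real.log (3 + q) with hl
  have hl1 : 1 ≤ l := by
    rw [hl, Real.le_log_iff_exp_le (by positivity)]
    have := Real.exp_one_lt_d9
    linarith
  have hql : Real.log (1 + q) ≤ l := Real.log_le_log (by linarith) (by linarith)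
  obtain ⟨g, hg, hgΦ⟩ := P004.K2.ord_factor (Rk.PhiA_diff hA hF) hale
  set Ψ : ℂ → ℂ := fun s => Rk.PhiA A (2 * s - 1) with hΨ
  have hΨd : Differentiable ℂ Ψ := by
    intro s
    exact ((Rk.PhiA_diff hA hF) _).comp s (by fun_prop)
  have hΨa : (a : ℕ∞) ≤ analyticOrderAt Ψ 1 := by
    rw [natCast_le_analyticOrderAt (hΨd.analyticAt 1)]
    have hgd : Differentiable ℂ (fun z : ℂ => (2 : ℂ) ^ a * g (2 * z - 1)) := by
      intro s
      exact (differentiableAt_const _).mul ((hg _).comp s (by fun_prop))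
    refine ⟨fun z => (2 : ℂ) ^ a * g (2 * z - 1), hgd.analyticAt 1, Eventually.of_forall fun z => ?_⟩
    rw [hΨ]
    simp only
    rw [hgΦ, smul_eq_mul, show (2 * z - 1 - 1 : ℂ) = 2 * (z - 1) by ring, mul_pow]
    ring
  set B : ℝ := 2 * Rk.KK 12 * (1 + q) ^ 3 with hB
  have hq3 : 1 ≤ (1 + q) ^ 3 := one_le_pow₀ (by linarith)
  have hB1 : 1 ≤ B := by
    rw [hB]
    nlinarith
  have key := hord Ψ (1 + l) B (1 / 10) a hΨd (by linarith) (by norm_num) (by norm_num) hB1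
    ?_ ?_ ?_ hΨa
  · have e1 : Real.log (B / (1 / 10)) = Real.log (20 * Rk.KK 12) + 3 * Real.log (1 + q) := by
      have : B / (1 / 10) = 20 * Rk.KK 12 * (1 + q) ^ 3 := by rw [hB]; ring
      rw [this, Real.log_mul (by positivity) (by positivity), Real.log_pow]
      push_cast
      ring
    rw [e1] at key
    have hlq0 : 0 ≤ Real.log (1 + q) := Real.log_nonneg (by linarith)
    have f1 : 1 + l + (Real.log (20 * Rk.KK 12) + 3 * Real.log (1 + q)) + 1 ≤ M * l := by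
      nlinarith
    have f2 : Real.log (20 * Rk.KK 12) + 3 * Real.log (1 + q) + 1 ≤ M * l := by
      nlinarith
    have f3 : (a : ℝ) ^ 2 ≤ (C * M * l) ^ 2 := by
      calc (a : ℝ) ^ 2 ≤ C * (1 + l + (Real.log (20 * Rk.KK 12) + 3 * Real.log (1 + q)) + 1) *
            (Real.log (20 * Rk.KK 12) + 3 * Real.log (1 + q) + 1) := key
        _ ≤ C * (M * l) * (M * l) := by gcongr
        _ ≤ C * C * (M * l) * (M * l) := by
            have : C ≤ C * C := by nlinarith
            gcongr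
        _ = _ := by ring
    have f4 := abs_le_of_sq_le_sq f3 (by positivity)
    rwa [abs_of_nonneg (Nat.cast_nonneg a)] at f4
  · intro s hs1 hs5
    refine Rk.PhiA_bound hA hF ?_ ?_ <;> simp <;> linarith
  · intro s hs0 hs1
    have e1 := Rk.PhiA_fe_norm hF (3 - 2 * s)
    have e2 : (2 - (3 - 2 * s) : ℂ) = 2 * s - 1 := by ring
    rw [e2] at e1
    have e3 : (3 - 2 * s : ℂ).re = 3 - 2 * s.re := by simp
    rw [e3] at e1
    have e4 := Rk.PhiA_bound hA hF (s := 3 - 2 * s) (by rw [e3]; linarith) (by rw [e3]; linarith)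
    rw [hΨ]
    simp only
    rw [e1, mul_comm]
    refine mul_le_mul e4 ?_ (by positivity) (by positivity)
    have hqe : q ≤ Real.exp l := by
      rw [hl, Real.exp_log (by positivity)]; linarith
    calc q ^ (3 - 2 * s.re - 1) ≤ (Real.exp l) ^ (3 - 2 * s.re - 1) :=
          Real.rpow_le_rpow hq.le hqe (by linarith)
      _ = Real.exp (2 * l * (1 - s.re)) := by rw [← Real.exp_mul]; ring_nf
      _ ≤ Real.exp (2 * (1 + l) * (1 - s.re)) := by
          apply Real.exp_le_exp.2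
          nlinarith
  · rw [hΨ]
    simp only
    have : (2 * 3 - 1 : ℂ) = 5 := by norm_num
    rw [this]
    exact Rk.PhiA_five hA

end P004G
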