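import Vale.Agent.P004G.ML

/-!
# P004G, package MLS: Mathlib's `L`-function of `y² = x³ + B`, local algebra
-/

open WeierstrassCurve IsDedekindDomain NumberField Polynomial

namespace P004G
namespace MS

open ML

section loc

variable {p : ℕ} {R : Type} [CommRing R] [IsDomain R] [IsDiscreteValuationRing R]

lemma mem_max (h : Loc p R) {x : R} : ¬ IsUnit x ↔ (p : R) ∣ x := by
  rw [← mem_nonunits_iff, ← IsLocalRing.mem_maximalIdeal, h.unif.maximalIdeal_eq,
    Ideal.mem_span_singleton]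

lemma int_unit (h : Loc p R) {n : ℤ} (hn : ¬ (p : ℤ) ∣ n) : IsUnit (n : R) := by
  by_contra h1
  rw [mem_max h] at h1
  have hp : Prime (p : ℤ) := Nat.prime_iff_prime_int.1 h.prime
  have hc : IsCoprime (p : ℤ) n := (Prime.coprime_iff_not_dvd hp).2 hn
  obtain ⟨x, y, hxy⟩ := hc
  have h2 : (x : R) * (p : R) + (y : R) * (n : R) = 1 := by
    have := congrArg (fun z : ℤ => (z : R)) hxy
    push_cast at this
    exact this
  have h3 : (p : R) ∣ 1 := by
    rw [← h2]
    exact dvd_add (Dvd.intro_left _ rfl) (h1.mul_left _)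
  exact h.unif.not_isUnit (isUnit_of_dvd_one h3)

lemma int_dvd (h : Loc p R) {n : ℤ} (h1 : (p : R) ∣ (n : R)) : (p : ℤ) ∣ n := by
  by_contra h2
  exact (mem_max h).2 h1 (int_unit h h2)

lemma int_pow_dvd (h : Loc p R) (k : ℕ) {n : ℤ} (h1 : (p : R) ^ k ∣ (n : R)) :
    (p : ℤ) ^ k ∣ n := by
  have := h.charZero
  induction k generalizing n with
  | zero => simp
  | succ k ih =>
    have h2 : (p : R) ∣ (n : R) := (dvd_pow_self _ (by omega)).trans h1
    obtain ⟨m, rfl⟩ := int_dvd h h2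
    have h3 : (p : R) ^ k ∣ (m : R) := by
      have hp0 : (p : R) ≠ 0 := h.unif.ne_zero
      push_cast at h1
      rw [pow_succ, mul_comm] at h1
      exact (mul_dvd_mul_iff_left hp0).1 h1
    rw [pow_succ, mul_comm]
    exact mul_dvd_mul_left _ (ih h3)

/-- an integer in terms of its `p`-part -/
lemma int_fac (hp : p.Prime) {B : ℤ} (hB : B ≠ 0) :
    B = (p : ℤ) ^ padicValInt p B * cop B p ∧ ¬ (p : ℤ) ∣ cop B p := by
  have : Fact p.Prime := ⟨hp⟩
  have h1 : (p : ℤ) ^ padicValInt p B ∣ B := (padicValInt_dvd_iff _ _).2 (Or.inr le_rfl)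
  have h2 : B = (p : ℤ) ^ padicValInt p B * cop B p := by
    unfold cop
    rw [Int.mul_ediv_cancel' h1]
  refine ⟨h2, fun h3 => ?_⟩
  obtain ⟨m, hm⟩ := h3
  have h4 : (p : ℤ) ^ (padicValInt p B + 1) ∣ B := by
    rw [pow_succ]
    refine ⟨m, ?_⟩
    rw [mul_assoc, ← hm]
    exact h2
  rcases (padicValInt_dvd_iff _ _).1 h4 with h | h
  · exact hB h
  · omega

/-- a nonzero element is a unit times a power of `p` -/
lemma fac (h : Loc p R) {x : R} (hx : x ≠ 0) : ∃ (n : ℕ) (u : Rˣ), x = u * (p : R) ^ n :=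
  IsDiscreteValuationRing.eq_unit_mul_pow_irreducible hx h.unif

lemma fac_unique (h : Loc p R) {x y : R} (hx : IsUnit x) (hy : IsUnit y) {m n : ℕ}
    (e : x * (p : R) ^ m = y * (p : R) ^ n) : m = n ∧ x = y := by
  obtain ⟨u, rfl⟩ := hx
  obtain ⟨v, rfl⟩ := hy
  have h1 := IsDiscreteValuationRing.unit_mul_pow_congr_pow h.unif h.unif u v m n e
  subst h1
  exact ⟨rfl, mul_right_cancel₀ (pow_ne_zero _ h.unif.ne_zero) e⟩

/-- the residue field -/
lemma res_equiv (h : Loc p R) : Nonempty (ZMod p ≃+* IsLocalRing.ResidueField R) := by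
  have : Fact p.Prime := ⟨h.prime⟩
  have : Finite (IsLocalRing.ResidueField R) :=
    Nat.finite_of_card_ne_zero (by rw [h.card]; exact h.prime.ne_zero)
  let := Fintype.ofFinite (IsLocalRing.ResidueField R)
  have hc : Fintype.card (IsLocalRing.ResidueField R) = p := by
    rw [← Nat.card_eq_fintype_card, h.card]
  exact ⟨ZMod.ringEquivOfPrime (IsLocalRing.ResidueField R) h.prime hc⟩

/-- invariance of the number of points -/
lemma affCard_equiv {F F' : Type} [Field F] [Field F'] (e : F ≃+* F') (W : WeierstrassCurve F) :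
    affCard (W.map (e : F →+* F')) = affCard W := by
  unfold affCard
  refine (Nat.card_congr ((e.toEquiv.prodCongr e.toEquiv).subtypeEquiv fun q => ?_)).symm
  simp only [Equiv.prodCongr_apply, Prod.map, RingEquiv.toEquiv_eq_coe, EquivLike.coe_coe,
    WeierstrassCurve.map_a₁, WeierstrassCurve.map_a₂, WeierstrassCurve.map_a₃,
    WeierstrassCurve.map_a₄, WeierstrassCurve.map_a₆, RingEquiv.coe_toRingHom]
  rw [← e.injective.eq_iff]
  simp only [map_add, map_mul, map_pow]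

end loc


/-! ### models of `y² = x³ + B` -/

section curve

variable {p : ℕ} {R : Type} [CommRing R] [IsDomain R] [IsDiscreteValuationRing R]
  {K : Type} [Field K] [Algebra R K] [IsFractionRing R K]

/-- the curve over `K` -/
def WS (K : Type) [Field K] (B : ℤ) : WeierstrassCurve K := ⟨0, 0, 0, 0, (B : K)⟩

lemma WS_c₄ (B : ℤ) : (WS K B).c₄ = 0 := by
  simp [WS, WeierstrassCurve.c₄, WeierstrassCurve.b₂, WeierstrassCurve.b₄]

lemma WS_c₆ (B : ℤ) : (WS K B).c₆ = -864 * (B : K) := by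
  simp [WS, WeierstrassCurve.c₆, WeierstrassCurve.b₂, WeierstrassCurve.b₄, WeierstrassCurve.b₆]
  ring

lemma WS_Δ (B : ℤ) : (WS K B).Δ = -432 * (B : K) ^ 2 := by
  simp [WS, WeierstrassCurve.Δ, WeierstrassCurve.b₂, WeierstrassCurve.b₄, WeierstrassCurve.b₆,
    WeierstrassCurve.b₈]
  ring

/-- `c₄ = 0` for every model -/
lemma model_c₄ {B : ℤ} {C : VariableChange K} {W₁ : WeierstrassCurve R}
    (e : C • WS K B = W₁.map (algebraMap R K)) : W₁.c₄ = 0 := by
  have h1 := congrArg WeierstrassCurve.c₄ e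
  rw [variableChange_c₄, WS_c₄, mul_zero, WeierstrassCurve.map_c₄] at h1
  exact (IsFractionRing.injective R K) (by rw [← h1, map_zero])

/-- the quantity `u` as a quotient -/
lemma exists_frac (C : VariableChange K) : ∃ a b : R, a ≠ 0 ∧ b ≠ 0 ∧
    (C.u : K) * algebraMap R K b = algebraMap R K a := by
  obtain ⟨a, b, hb, e⟩ := IsFractionRing.div_surjective (A := R) (C.u : K)
  have hb0 : b ≠ 0 := nonZeroDivisors.ne_zero hb
  have hb1 : algebraMap R K b ≠ 0 := by
    intro h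
    exact hb0 ((IsFractionRing.injective R K) (by rw [h, map_zero]))
  refine ⟨a, b, ?_, hb0, ?_⟩
  · rintro rfl
    rw [map_zero, zero_div] at e
    exact C.u.ne_zero e.symm
  · rw [← e]
    field_simp

lemma Δ_eq {B : ℤ} {C : VariableChange K} {W₁ : WeierstrassCurve R}
    (e : C • WS K B = W₁.map (algebraMap R K)) {a b : R}
    (hu : (C.u : K) * algebraMap R K b = algebraMap R K a) :
    -432 * (B : R) ^ 2 * b ^ 12 = W₁.Δ * a ^ 12 := by
  have h1 := congrArg WeierstrassCurve.Δ e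
  rw [variableChange_Δ, WS_Δ, WeierstrassCurve.map_Δ] at h1
  apply IsFractionRing.injective R K
  simp only [map_mul, map_pow, map_neg, map_ofNat, map_intCast]
  rw [← h1, ← hu]
  have h2 : ((C.u⁻¹ : Kˣ) : K) * (C.u : K) = 1 := C.u.inv_mul
  calc -432 * (B : K) ^ 2 * algebraMap R K b ^ 12
      = (((C.u⁻¹ : Kˣ) : K) * (C.u : K)) ^ 12 * (-432 * (B : K) ^ 2) * algebraMap R K b ^ 12 := by
        rw [h2]; ring
    _ = _ := by ring

lemma c₆_eq {B : ℤ} {C : VariableChange K} {W₁ : WeierstrassCurve R}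
    (e : C • WS K B = W₁.map (algebraMap R K)) {a b : R}
    (hu : (C.u : K) * algebraMap R K b = algebraMap R K a) :
    -864 * (B : R) * b ^ 6 = W₁.c₆ * a ^ 6 := by
  have h1 := congrArg WeierstrassCurve.c₆ e
  rw [variableChange_c₆, WS_c₆, WeierstrassCurve.map_c₆] at h1
  apply IsFractionRing.injective R K
  simp only [map_mul, map_pow, map_neg, map_ofNat, map_intCast]
  rw [← h1, ← hu]
  have h2 : ((C.u⁻¹ : Kˣ) : K) * (C.u : K) = 1 := C.u.inv_mul
  calc -864 * (B : K) * algebraMap R K b ^ 6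
      = (((C.u⁻¹ : Kˣ) : K) * (C.u : K)) ^ 6 * (-864 * (B : K)) * algebraMap R K b ^ 6 := by
        rw [h2]; ring
    _ = _ := by ring

/-- `p ≥ 5`: if some model has unit discriminant, then `6 ∣ v_p(B)` -/
lemma big_of_unit (h : Loc p R) (hp : 5 ≤ p) {B : ℤ} (hB : B ≠ 0) {C : VariableChange K}
    {W₁ : WeierstrassCurve R} (e : C • WS K B = W₁.map (algebraMap R K)) (hΔ : IsUnit W₁.Δ) :
    6 ∣ padicValInt p B := by
  obtain ⟨a, b, ha, hb, hu⟩ := exists_frac (R := R) C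
  have h1 := Δ_eq e hu
  obtain ⟨i, u, rfl⟩ := fac h ha
  obtain ⟨j, v, rfl⟩ := fac h hb
  obtain ⟨hB1, hB2⟩ := int_fac h.prime hB
  set w := padicValInt p B with hw
  have hB3 : (B : R) = (cop B p : R) * (p : R) ^ w := by
    have := congrArg (fun z : ℤ => (z : R)) hB1
    push_cast at this
    rw [this]; ring
  have hcop := int_unit h hB2
  have h432 : IsUnit ((-432 : ℤ) : R) := by
    apply int_unit h
    intro hd
    have h2 : (p : ℤ) ∣ 2 ^ 4 * 3 ^ 3 := by
      have : (-432 : ℤ) = -(2 ^ 4 * 3 ^ 3) := by norm_num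
      rw [this, dvd_neg] at hd
      exact hd
    have h3 : p ∣ 2 ^ 4 * 3 ^ 3 := by exact_mod_cast h2
    rcases (Nat.Prime.dvd_mul h.prime).1 h3 with h4 | h4
    · have := Nat.le_of_dvd (by norm_num) (h.prime.dvd_of_dvd_pow h4)
      omega
    · have := Nat.le_of_dvd (by norm_num) (h.prime.dvd_of_dvd_pow h4)
      omega
  rw [hB3] at h1
  have h5 : (((-432 : ℤ) : R) * (cop B p : R) ^ 2 * (v : R) ^ 12) * (p : R) ^ (2 * w + 12 * j) =
      (W₁.Δ * (u : R) ^ 12) * (p : R) ^ (12 * i) := by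
    push_cast
    calc _ = -432 * ((cop B p : R) * (p : R) ^ w) ^ 2 * ((v : R) * (p : R) ^ j) ^ 12 := by ring
      _ = _ := h1
      _ = _ := by ring
  have h6 := (fac_unique h ((h432.mul (hcop.pow 2)).mul (v.isUnit.pow 12))
    (hΔ.mul (u.isUnit.pow 12)) h5).1
  omega

/-- `p = 3`: no model has unit discriminant -/
lemma three_bad (h : Loc 3 R) {B : ℤ} {C : VariableChange K} {W₁ : WeierstrassCurve R}
    (e : C • WS K B = W₁.map (algebraMap R K)) : ¬ IsUnit W₁.Δ := by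
  intro hΔ
  have h4 := model_c₄ e
  have h1 := W₁.c_relation
  rw [h4] at h1
  have hne : W₁.c₆ ≠ 0 := by
    intro h0
    rw [h0] at h1
    have hc := h.charZero
    have h2 : (1728 : R) * W₁.Δ = 0 := by
      rw [h1]; ring
    rcases mul_eq_zero.1 h2 with h3 | h3
    · have : ((1728 : ℕ) : R) = 0 := by exact_mod_cast h3
      rw [Nat.cast_eq_zero] at this
      omega
    · rw [h3] at hΔ
      exact not_isUnit_zero hΔ
  obtain ⟨i, u, hc6⟩ := fac h hne
  rw [hc6] at h1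
  have h64 : IsUnit ((-64 : ℤ) : R) := int_unit h (by norm_num)
  have h5 : (((-64 : ℤ) : R) * W₁.Δ) * ((3 : ℕ) : R) ^ 3 =
      (u : R) ^ 2 * ((3 : ℕ) : R) ^ (2 * i) := by
    push_cast
    push_cast at h1
    linear_combination -h1
  have h6 := (fac_unique h (h64.mul hΔ) (u.isUnit.pow 2) h5).1
  omega

/-- the residue field has two elements: units are `1` modulo `2` -/
lemma unit_two (h : Loc 2 R) {x : R} (hx : IsUnit x) : (2 : R) ∣ x - 1 := by
  obtain ⟨e⟩ := res_equiv h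
  have h1 : ¬ IsUnit (x - 1) := by
    rw [← mem_nonunits_iff, ← IsLocalRing.mem_maximalIdeal, ← Ideal.Quotient.eq_zero_iff_mem]
    have h2 : IsLocalRing.residue R x ≠ 0 := by
      intro h0
      rw [IsLocalRing.residue_eq_zero_iff, IsLocalRing.mem_maximalIdeal] at h0
      exact h0 hx
    have h3 : ∀ z : ZMod 2, z ≠ 0 → z = 1 := by decide
    have h4 : e.symm (IsLocalRing.residue R x) = 1 := by
      apply h3
      intro h5
      apply h2
      rw [← e.apply_symm_apply (IsLocalRing.residue R x), h5, map_zero]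
    have h5 : IsLocalRing.residue R x = 1 := by
      rw [← e.apply_symm_apply (IsLocalRing.residue R x), h4, map_one]
    have h6 : IsLocalRing.residue R (x - 1) = 0 := by rw [map_sub, h5, map_one, sub_self]
    exact h6
  have h2 := (mem_max h).1 h1
  exact_mod_cast h2

/-- squares of units are `1` modulo `4` -/
lemma unit_sq (h : Loc 2 R) {x : R} (hx : IsUnit x) : (4 : R) ∣ x ^ 2 - 1 := by
  obtain ⟨t, ht⟩ := unit_two h hx
  refine ⟨t * (t + 1), ?_⟩
  have : x = 1 + 2 * t := by linear_combination ht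
  rw [this]; ring

/-- `p = 2`: if some model has unit discriminant, then `v₂(B) = 4 mod 6` and the odd part of `B`
is `1` modulo `4` -/
lemma two_of_unit (h : Loc 2 R) {B : ℤ} (hB : B ≠ 0) {C : VariableChange K}
    {W₁ : WeierstrassCurve R} (e : C • WS K B = W₁.map (algebraMap R K)) (hΔ : IsUnit W₁.Δ) :
    padicValInt 2 B % 6 = 4 ∧ cop B 2 % 4 = 1 := by
  have h4 := model_c₄ e
  have h2i : Irreducible (2 : R) := by exact_mod_cast h.unif
  have h2p : Prime (2 : R) := h2i.prime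
  have h20 : (2 : R) ≠ 0 := h2p.ne_zero
  have hmm : ∀ {x : R}, ¬ IsUnit x ↔ (2 : R) ∣ x := fun {x} => by
    have := mem_max h (x := x)
    exact_mod_cast this
  -- `a₁` is even
  have ha₁ : (2 : R) ∣ W₁.a₁ := by
    apply h2p.dvd_of_dvd_pow (n := 4)
    have e1 : W₁.a₁ ^ 4 = 2 * (-(4 * W₁.a₁ ^ 2 * W₁.a₂ + 8 * W₁.a₂ ^ 2) +
        12 * (2 * W₁.a₄ + W₁.a₁ * W₁.a₃)) := by
      rw [WeierstrassCurve.c₄, WeierstrassCurve.b₂, WeierstrassCurve.b₄] at h4
      linear_combination h4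
    exact ⟨_, e1⟩
  obtain ⟨α, hα⟩ := ha₁
  set β : R := α ^ 2 + W₁.a₂ with hβ
  set γ : R := W₁.a₄ + α * W₁.a₃ with hγ
  have hb₂ : W₁.b₂ = 4 * β := by rw [WeierstrassCurve.b₂, hα, hβ]; ring
  have hb₄ : W₁.b₄ = 2 * γ := by rw [WeierstrassCurve.b₄, hα, hγ]; ring
  have hb₆ : W₁.b₆ = W₁.a₃ ^ 2 + 4 * W₁.a₆ := rfl
  have hβγ : β ^ 2 = 3 * γ := by
    rw [WeierstrassCurve.c₄, hb₂, hb₄] at h4
    have h16 : (16 : R) ≠ 0 := by
      have : (16 : R) = 2 ^ 4 := by norm_num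
      rw [this]
      exact pow_ne_zero _ h20
    apply mul_left_cancel₀ h16
    linear_combination h4
  have hc₆ : W₁.c₆ = -8 * (27 * W₁.b₆ - 4 * β ^ 3) := by
    rw [WeierstrassCurve.c₆, hb₂, hb₄]
    linear_combination (-96 * β) * hβγ
  -- `a₃` is a unit
  have ha₃ : IsUnit W₁.a₃ := by
    by_contra h3
    rw [hmm] at h3
    obtain ⟨z, hz⟩ := h3
    apply (hmm (x := W₁.Δ)).2 _ hΔ
    rw [WeierstrassCurve.Δ, hb₂, hb₄, hb₆, hz]
    refine ⟨-(8 * β ^ 2 * W₁.b₈) - 32 * γ ^ 3 - 27 * 8 * (z ^ 2 + W₁.a₆) ^ 2 +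
      9 * 4 * β * γ * (4 * z ^ 2 + 4 * W₁.a₆), ?_⟩
    ring
  set N : R := 27 * W₁.b₆ - 4 * β ^ 3 with hN
  have hN4 : (4 : R) ∣ N - 27 := by
    obtain ⟨t, ht⟩ := unit_sq h ha₃
    refine ⟨27 * t + 27 * W₁.a₆ - β ^ 3, ?_⟩
    rw [hN, hb₆]
    linear_combination 27 * ht
  have hNu : IsUnit N := by
    by_contra h3
    rw [hmm] at h3
    have h5 : (2 : R) ∣ ((27 : ℤ) : R) := by
      have e1 : ((27 : ℤ) : R) = N - (N - 27) := by push_cast; ring
      rw [e1]
      exact dvd_sub h3 (dvd_trans ⟨2, by norm_num⟩ hN4)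
    have h6 := int_dvd h (n := 27) (by exact_mod_cast h5)
    norm_num at h6
  obtain ⟨a, b, ha, hb, hu⟩ := exists_frac (R := R) C
  have h1 := c₆_eq e hu
  rw [hc₆] at h1
  obtain ⟨i, u, rfl⟩ := fac h ha
  obtain ⟨j, v, rfl⟩ := fac h hb
  obtain ⟨hB1, hB2⟩ := int_fac h.prime hB
  set w := padicValInt 2 B with hw
  have hB3 : (B : R) = (cop B 2 : R) * (2 : R) ^ w := by
    have := congrArg (fun z : ℤ => (z : R)) hB1
    push_cast at this
    rw [this]; ring
  have hcop := int_unit h hB2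
  have h27 : IsUnit ((27 : ℤ) : R) := int_unit h (by norm_num)
  have h8 : (-8 : R) ≠ 0 := by
    have : (-8 : R) = -(2 ^ 3) := by norm_num
    rw [this]
    exact neg_ne_zero.2 (pow_ne_zero _ h20)
  rw [hB3] at h1
  push_cast at h1
  have h5 : (((27 : ℤ) : R) * (cop B 2 : R) * (v : R) ^ 6) * ((2 : ℕ) : R) ^ (2 + w + 6 * j) =
      (N * (u : R) ^ 6) * ((2 : ℕ) : R) ^ (6 * i) := by
    push_cast
    apply mul_left_cancel₀ h8
    calc _ = -864 * ((cop B 2 : R) * (2 : R) ^ w) * ((v : R) * (2 : R) ^ j) ^ 6 := by ring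
      _ = _ := h1
      _ = _ := by ring
  obtain ⟨h6, h7⟩ := fac_unique h ((h27.mul hcop).mul (v.isUnit.pow 6))
    (hNu.mul (u.isUnit.pow 6)) h5
  refine ⟨by omega, ?_⟩
  -- everything modulo `4`
  have hsix : ∀ {x : R}, IsUnit x → (4 : R) ∣ x ^ 6 - 1 := by
    intro x hx
    obtain ⟨t, ht⟩ := unit_sq h hx
    refine ⟨t * (x ^ 4 + x ^ 2 + 1), ?_⟩
    linear_combination (x ^ 4 + x ^ 2 + 1) * ht
  obtain ⟨t₁, ht₁⟩ := hsix v.isUnit
  obtain ⟨t₂, ht₂⟩ := hsix u.isUnit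
  obtain ⟨t₃, ht₃⟩ := hN4
  have h9 : ((2 : ℕ) : R) ^ 2 ∣ ((27 * (cop B 2 - 1) : ℤ) : R) := by
    refine ⟨t₃ + N * t₂ - 27 * (cop B 2 : R) * t₁, ?_⟩
    push_cast
    push_cast at h7
    linear_combination h7 + ht₃ - 27 * (cop B 2 : R) * ht₁ + N * ht₂
  have h10 := int_pow_dvd h 2 h9
  push_cast at h10
  omega

end curve

end MS
end P004G
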