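import Vale.Agent.P004G.H871.MLS

/-!
# P004G, package MLS: Mathlib's `L`-function of `y² = x³ + B`
-/

open WeierstrassCurve IsDedekindDomain NumberField Polynomial

namespace P004G
namespace MS

open ML

section curve

variable {p : ℕ} {R : Type} [CommRing R] [IsDomain R] [IsDiscreteValuationRing R]
  {K : Type} [Field K] [Algebra R K] [IsFractionRing R K]

lemma int_ne (h : Loc p R) {n : ℤ} (hn : n ≠ 0) : (algebraMap R K (n : R)) ≠ 0 := by
  have := h.charZero
  intro h0
  have h1 : (n : R) = 0 := (IsFractionRing.injective R K) (by rw [h0, map_zero])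
  exact hn (by exact_mod_cast h1)

/-- the good model at `p ≥ 5` -/
lemma model_big (h : Loc p R) {B : ℤ} (hB : B ≠ 0) (h6 : 6 ∣ padicValInt p B) :
    ∃ C : VariableChange K, C • WS K B =
      (⟨0, 0, 0, 0, (cop B p : R)⟩ : WeierstrassCurve R).map (algebraMap R K) := by
  obtain ⟨k, hk⟩ := h6
  obtain ⟨hB1, hB2⟩ := int_fac h.prime hB
  have hp0 : ((p : K)) ≠ 0 := by
    have := int_ne (K := K) h (n := p) (by exact_mod_cast h.prime.ne_zero)
    simpa using this
  refine ⟨⟨Units.mk0 ((p : K) ^ k) (pow_ne_zero _ hp0), 0, 0, 0⟩, ?_⟩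
  have hBK : (B : K) = (p : K) ^ (6 * k) * (cop B p : K) := by
    have := congrArg (fun z : ℤ => (z : K)) hB1
    rw [hk] at this
    push_cast at this
    exact this
  ext
  · simp [variableChange_a₁, WS]
  · simp [variableChange_a₂, WS]
  · simp [variableChange_a₃, WS]
  · simp [variableChange_a₄, WS]
  · simp only [variableChange_a₆, WS, WeierstrassCurve.map_a₆, Units.val_inv_eq_inv_val,
      Units.val_mk0, map_intCast]
    rw [hBK]
    field_simp
    ring

/-- the good model at `2` -/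
lemma model_two (h : Loc 2 R) {B : ℤ} (hB : B ≠ 0) (h6 : padicValInt 2 B % 6 = 4) {c : ℤ}
    (hc : cop B 2 = 1 + 4 * c) :
    ∃ C : VariableChange K, C • WS K B =
      (⟨0, 0, 1, 0, (c : R)⟩ : WeierstrassCurve R).map (algebraMap R K) := by
  obtain ⟨hB1, hB2⟩ := int_fac h.prime hB
  have hp0 : (2 : K) ≠ 0 := by
    have := int_ne (K := K) h (n := 2) (by norm_num)
    rw [map_intCast] at this
    exact_mod_cast this
  obtain ⟨k, hk⟩ : ∃ k, padicValInt 2 B + 2 = 6 * k := ⟨(padicValInt 2 B + 2) / 6, by omega⟩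
  refine ⟨⟨Units.mk0 ((2 : K) ^ k) (pow_ne_zero _ hp0), 0, 0, (2 : K) ^ (3 * k) / 2⟩, ?_⟩
  have hBK : 4 * (B : K) = (2 : K) ^ (6 * k) * (1 + 4 * c) := by
    have h1 : 4 * B = 2 ^ (6 * k) * (1 + 4 * c) := by
      rw [← hc, ← hk, pow_add]
      push_cast at hB1
      linear_combination 4 * hB1
    have := congrArg (fun z : ℤ => (z : K)) h1
    push_cast at this
    exact this
  have hBK' : (B : K) = (2 : K) ^ (6 * k) * (1 + 4 * c) / 4 := by
    have h4 : (4 : K) ≠ 0 := by
      have : (4 : K) = 2 ^ 2 := by norm_num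
      rw [this]
      exact pow_ne_zero _ hp0
    rw [← hBK]
    field_simp
  ext
  · simp [variableChange_a₁, WS]
  · simp [variableChange_a₂, WS]
  · simp only [variableChange_a₃, WS, WeierstrassCurve.map_a₃, Units.val_inv_eq_inv_val,
      Units.val_mk0, map_one]
    field_simp
    ring
  · simp [variableChange_a₄, WS]
  · simp only [variableChange_a₆, WS, WeierstrassCurve.map_a₆, Units.val_inv_eq_inv_val,
      Units.val_mk0, map_intCast]
    rw [hBK']
    have h4 : (4 : K) ≠ 0 := by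
      have : (4 : K) = 2 ^ 2 := by norm_num
      rw [this]
      exact pow_ne_zero _ hp0
    field_simp
    ring

lemma Δ_big (c : R) : (⟨0, 0, 0, 0, c⟩ : WeierstrassCurve R).Δ = -432 * c ^ 2 := by
  simp [WeierstrassCurve.Δ, WeierstrassCurve.b₂, WeierstrassCurve.b₄, WeierstrassCurve.b₆,
    WeierstrassCurve.b₈]
  ring

lemma Δ_two (c : R) : (⟨0, 0, 1, 0, c⟩ : WeierstrassCurve R).Δ = -27 * (1 + 4 * c) ^ 2 := by
  simp [WeierstrassCurve.Δ, WeierstrassCurve.b₂, WeierstrassCurve.b₄, WeierstrassCurve.b₆,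
    WeierstrassCurve.b₈]

/-- the number of points of the reduction at `p ≥ 5` -/
lemma count_big (h : Loc p R) (c : ℤ) :
    (p : ℤ) - affCard ((⟨0, 0, 0, 0, (c : R)⟩ : WeierstrassCurve R).map (IsLocalRing.residue R)) =
      trS c p := by
  obtain ⟨e⟩ := res_equiv h
  have h1 : (⟨0, 0, 0, 0, (c : R)⟩ : WeierstrassCurve R).map (IsLocalRing.residue R) =
      (⟨0, 0, 0, 0, (c : ZMod p)⟩ : WeierstrassCurve (ZMod p)).map
        (e : ZMod p →+* IsLocalRing.ResidueField R) := by
    ext <;> simp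
  have : Fact p.Prime := ⟨h.prime⟩
  rw [h1, affCard_equiv]
  unfold affCard trS
  simp

/-- the number of points of the reduction at `2` -/
lemma count_two (h : Loc 2 R) (c : ℤ) :
    affCard ((⟨0, 0, 1, 0, (c : R)⟩ : WeierstrassCurve R).map (IsLocalRing.residue R)) = 2 := by
  obtain ⟨e⟩ := res_equiv h
  have h1 : (⟨0, 0, 1, 0, (c : R)⟩ : WeierstrassCurve R).map (IsLocalRing.residue R) =
      (⟨0, 0, 1, 0, (c : ZMod 2)⟩ : WeierstrassCurve (ZMod 2)).map
        (e : ZMod 2 →+* IsLocalRing.ResidueField R) := by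
    ext <;> simp
  rw [h1, affCard_equiv]
  unfold affCard
  have h2 : ∀ c : ZMod 2, Nat.card {q : ZMod 2 × ZMod 2 // q.2 ^ 2 + 0 * q.1 * q.2 + 1 * q.2 =
      q.1 ^ 3 + 0 * q.1 ^ 2 + 0 * q.1 + c} = 2 := by
    intro c
    rw [Nat.card_eq_fintype_card]
    revert c
    decide
  exact h2 _

end curve

/-- two multiplicative functions which agree at the prime powers -/
lemma mult_eq {f g : ℕ → ℤ} (f0 : f 0 = g 0) (f1 : f 1 = g 1)
    (hf : ∀ m n : ℕ, m.Coprime n → f (m * n) = f m * f n)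
    (hg : ∀ m n : ℕ, m.Coprime n → g (m * n) = g m * g n)
    (h : ∀ p : ℕ, p.Prime → ∀ k : ℕ, f (p ^ k) = g (p ^ k)) (n : ℕ) : f n = g n := by
  induction n using Nat.recOnPosPrimePosCoprime with
  | prime_pow p n hp hn => exact h p hp n
  | zero => exact f0
  | one => exact f1
  | coprime a b ha hb hab ih1 ih2 => rw [hf a b hab, hg a b hab, ih1, ih2]

lemma triv_eq {f g : ℕ → ℤ} {p : ℕ} (f1 : f 1 = 1) (g1 : g 1 = 1) (hf : TrivAt f p)
    (hg : TrivAt g p) (k : ℕ) : f (p ^ k) = g (p ^ k) := by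
  rcases k with _ | k
  · rw [pow_zero, f1, g1]
  · rw [hf k, hg k]

lemma good_eq {f g : ℕ → ℤ} {p : ℕ} (f1 : f 1 = 1) (g1 : g 1 = 1) (hf : GoodAt f p)
    (hg : GoodAt g p) (h : f p = g p) (k : ℕ) : f (p ^ k) = g (p ^ k) := by
  induction k using Nat.strong_induction_on with
  | _ k ih =>
    rcases k with _ | _ | k
    · rw [pow_zero, f1, g1]
    · rw [zero_add, pow_one, h]
    · rw [hf k, hg k, h, ih (k + 1) (by omega), ih k (by omega)]

lemma base_eq (B : ℤ) (p : ℕ) (hp : p.Prime) :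
    (Ec 0 B).baseChange ((pl p hp).adicCompletion ℚ) = WS ((pl p hp).adicCompletion ℚ) B := by
  ext <;> simp [Ec, WS, WeierstrassCurve.baseChange]

/-- Module MLS. -/
theorem pfMLS (hG : StLocGood) (hAd : StLocAdd) (hL : StLoc) (hE : StEul) : StMLS := by
  intro B hB A hA
  obtain ⟨e0, e1, emul, eloc⟩ := hE 0 B
  refine mult_eq (by rw [hA.ld.zero, e0]) (by rw [hA.ld.one, e1]) hA.ld.mul emul ?_
  intro p hp
  have hLp := hL p hp
  obtain ⟨l1, l2, l3, l4⟩ := eloc p hp
  have hloc : locP 0 B p hp = (WS ((pl p hp).adicCompletion ℚ) B).localPolynomial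
      ((pl p hp).adicCompletionIntegers ℚ) := by
    unfold locP
    rw [base_eq]
  have hadd : (∀ (C : VariableChange ((pl p hp).adicCompletion ℚ))
      (W₁ : WeierstrassCurve ((pl p hp).adicCompletionIntegers ℚ)),
      C • WS ((pl p hp).adicCompletion ℚ) B = W₁.map (algebraMap _ _) → ¬ IsUnit W₁.Δ) →
      TrivAt (LA 0 B) p := by
    intro h
    apply l1
    rw [hloc]
    refine hAd p _ _ hLp _ fun C W₁ e => ⟨h C W₁ e, ?_⟩
    rw [model_c₄ e]
    exact not_isUnit_zero
  rcases eq_or_ne p 2 with rfl | hp2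
  · by_cases hgood : padicValInt 2 B % 6 = 4 ∧ cop B 2 % 4 = 1
    · obtain ⟨hg1, hg2⟩ := hA.two_good hgood
      obtain ⟨c, hc⟩ : ∃ c, cop B 2 = 1 + 4 * c := ⟨(cop B 2 - 1) / 4, by omega⟩
      obtain ⟨C, hC⟩ := model_two (K := (pl 2 hp).adicCompletion ℚ) hLp hB hgood.1 hc
      have hu : IsUnit (⟨0, 0, 1, 0, (c : (pl 2 hp).adicCompletionIntegers ℚ)⟩ :
          WeierstrassCurve ((pl 2 hp).adicCompletionIntegers ℚ)).Δ := by
        rw [Δ_two]
        have h27 := int_unit hLp (n := -27) (by norm_num)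
        have hcc := int_unit hLp (n := 1 + 4 * c) (by push_cast; omega)
        have := h27.mul (hcc.pow 2)
        push_cast at this
        exact this
      have hpol := hG 2 _ _ hLp _ C _ hC hu
      rw [← hloc, count_two hLp] at hpol
      obtain ⟨t1, t2⟩ := l4 _ hpol
      refine good_eq hA.ld.one e1 hg1 t2 ?_
      rw [hg2, t1]
      norm_num
    · refine triv_eq hA.ld.one e1 (hA.two_bad hgood) (hadd ?_)
      intro C W₁ e hu
      exact hgood (two_of_unit hLp hB e hu)
  rcases eq_or_ne p 3 with rfl | hp3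
  · refine triv_eq hA.ld.one e1 hA.three (hadd ?_)
    intro C W₁ e
    exact three_bad hLp e
  have hp5 : 5 ≤ p := by
    have h2 := hp.two_le
    rcases eq_or_ne p 4 with rfl | h4
    · exact absurd hp (by norm_num)
    · omega
  by_cases hgood : 6 ∣ padicValInt p B
  · obtain ⟨hg1, hg2⟩ := hA.good p hp hp5 hgood
    obtain ⟨C, hC⟩ := model_big (K := (pl p hp).adicCompletion ℚ) hLp hB hgood
    have hu : IsUnit (⟨0, 0, 0, 0, (cop B p : (pl p hp).adicCompletionIntegers ℚ)⟩ :
        WeierstrassCurve ((pl p hp).adicCompletionIntegers ℚ)).Δ := by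
      rw [Δ_big]
      have h432 : IsUnit ((-432 : ℤ) : (pl p hp).adicCompletionIntegers ℚ) := by
        apply int_unit hLp
        intro hd
        have h2 : (p : ℤ) ∣ 2 ^ 4 * 3 ^ 3 := by
          have : (-432 : ℤ) = -(2 ^ 4 * 3 ^ 3) := by norm_num
          rw [this, dvd_neg] at hd
          exact hd
        have h3 : p ∣ 2 ^ 4 * 3 ^ 3 := by exact_mod_cast h2
        rcases (Nat.Prime.dvd_mul hp).1 h3 with h4 | h4
        · have := Nat.le_of_dvd (by norm_num) (hp.dvd_of_dvd_pow h4)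
          omega
        · have := Nat.le_of_dvd (by norm_num) (hp.dvd_of_dvd_pow h4)
          omega
      have hcc := int_unit hLp (int_fac hp hB).2
      have := h432.mul (hcc.pow 2)
      push_cast at this
      exact this
    have hpol := hG p _ _ hLp _ C _ hC hu
    rw [← hloc, count_big hLp] at hpol
    obtain ⟨t1, t2⟩ := l4 _ hpol
    refine good_eq hA.ld.one e1 hg1 t2 ?_
    rw [hg2, t1]
  · refine triv_eq hA.ld.one e1 (hA.bad p hp hp5 hgood) (hadd ?_)
    intro C W₁ e hu
    exact hgood (big_of_unit hLp hp5 hB e hu)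

end MS
end P004G
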