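import Vale.Agent.P004G.H175.Z0

/-!
# P004G, package G8 (c), part 1: the Mellin transform of `TH A`

Bounds which are uniform in `A`, `q`, `κ`; `PhiA A` is entire, has a functional equation, is
`4 Γ(s) π^{-s} ∑ A n n^{-s}` for `Re s > 3`.
-/

open Complex Filter Set MeasureTheory Asymptotics
open scoped Topology ENNReal

namespace P004G
namespace Rk

variable {A : ℕ → ℤ} {q κ : ℝ}

lemma dv_le (n : ℕ) : dv n ≤ n := by
  unfold P004.dv
  exact_mod_cast Nat.card_divisors_le_self n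

lemma A_le_sq (hA : LD A) (n : ℕ) : |(A n : ℝ)| ≤ (n : ℝ) ^ 2 := by
  rcases Nat.eq_zero_or_pos n with rfl | hn
  · rw [hA.zero]; simp
  · have hn1 : (1 : ℝ) ≤ n := by exact_mod_cast hn
    have h1 := pfLbound A hA n
    have h2 : √(n : ℝ) ≤ n := by
      rw [Real.sqrt_le_left (by positivity)]
      nlinarith
    have h3 := dv_le n
    have h4 : (0 : ℝ) ≤ √(n : ℝ) := Real.sqrt_nonneg _
    calc |(A n : ℝ)| ≤ dv n * √(n : ℝ) := h1
      _ ≤ n * n := by gcongr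
      _ = (n : ℝ) ^ 2 := by ring

/-- `∑ 1/n²` -/
noncomputable def Z2 : ℝ := ∑' n : ℕ, 1 / (n : ℝ) ^ 2

lemma summable_Z2 : Summable (fun n : ℕ => 1 / (n : ℝ) ^ 2) :=
  Real.summable_one_div_nat_pow.2 (by norm_num)

lemma Z2_ge : 1 ≤ Z2 := by
  unfold Z2
  have h := summable_Z2.le_tsum 1 (fun n _ => by positivity)
  simpa using h

/-- the constants -/
noncomputable def KK (k : ℕ) : ℝ := 4 * (k.factorial : ℝ) * Z2

lemma KK_ge (k : ℕ) : 1 ≤ KK k := by
  unfold KK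
  have h1 : (1 : ℝ) ≤ (k.factorial : ℝ) := by exact_mod_cast Nat.factorial_pos k
  have h2 := Z2_ge
  nlinarith

lemma KK_mono {k l : ℕ} (h : k ≤ l) : KK k ≤ KK l := by
  unfold KK
  have h1 : (k.factorial : ℝ) ≤ (l.factorial : ℝ) := by exact_mod_cast Nat.factorial_le h
  have h2 : 0 ≤ Z2 := zero_le_one.trans Z2_ge
  gcongr

lemma exp_term {k : ℕ} (hk : 4 ≤ k) {u : ℝ} (hu : 0 < u) {n : ℕ} (hn : 0 < n) :
    (n : ℝ) ^ 2 * Real.exp (-Real.pi * n * u) ≤ (k.factorial : ℝ) / u ^ k * (1 / (n : ℝ) ^ 2) := by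
  have hn1 : (1 : ℝ) ≤ n := by exact_mod_cast hn
  have hn0 : (0 : ℝ) < n := by linarith
  have hnu : 0 < (n : ℝ) * u := by positivity
  have h1 : Real.exp (-Real.pi * n * u) ≤ Real.exp (-(n * u)) := by
    apply Real.exp_le_exp.2
    have := Real.pi_gt_three
    nlinarith
  have h2 : Real.exp (-(n * u)) ≤ (k.factorial : ℝ) / (n * u) ^ k := by
    have h3 := Real.pow_div_factorial_le_exp (x := n * u) hnu.le k
    rw [Real.exp_neg, le_div_iff₀ (by positivity), inv_mul_le_iff₀ (Real.exp_pos _)]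
    rw [div_le_iff₀ (by positivity)] at h3
    exact h3
  have h4 : (n : ℝ) ^ 2 * (1 / (n * u) ^ k) ≤ 1 / u ^ k * (1 / (n : ℝ) ^ 2) := by
    rw [mul_pow]
    have h5 : (n : ℝ) ^ 4 ≤ (n : ℝ) ^ k := pow_le_pow_right₀ hn1 hk
    have h6 : (n : ℝ) ^ 2 * (1 / ((n : ℝ) ^ k * u ^ k)) = 1 / u ^ k * ((n : ℝ) ^ 2 / (n : ℝ) ^ k) := by
      field_simp
    rw [h6]
    apply mul_le_mul_of_nonneg_left _ (by positivity)
    rw [div_le_div_iff₀ (by positivity) (by positivity)]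
    calc (n : ℝ) ^ 2 * (n : ℝ) ^ 2 = (n : ℝ) ^ 4 := by ring
      _ ≤ (n : ℝ) ^ k := h5
      _ = 1 * (n : ℝ) ^ k := by ring
  have hf : (0 : ℝ) ≤ (k.factorial : ℝ) := by positivity
  calc (n : ℝ) ^ 2 * Real.exp (-Real.pi * n * u)
      ≤ (n : ℝ) ^ 2 * ((k.factorial : ℝ) / (n * u) ^ k) := by
        apply mul_le_mul_of_nonneg_left (h1.trans h2) (by positivity)
    _ = (k.factorial : ℝ) * ((n : ℝ) ^ 2 * (1 / (n * u) ^ k)) := by ring
    _ ≤ (k.factorial : ℝ) * (1 / u ^ k * (1 / (n : ℝ) ^ 2)) := mul_le_mul_of_nonneg_left h4 hf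
    _ = _ := by ring

lemma term_le (hA : LD A) {k : ℕ} (hk : 4 ≤ k) {u : ℝ} (hu : 0 < u) (n : ℕ) :
    ‖(A n : ℝ) * Real.exp (-Real.pi * n * u)‖ ≤ (k.factorial : ℝ) / u ^ k * (1 / (n : ℝ) ^ 2) := by
  rcases Nat.eq_zero_or_pos n with rfl | hn
  · rw [hA.zero]; simp
  · rw [norm_mul, Real.norm_eq_abs, Real.norm_of_nonneg (Real.exp_pos _).le]
    refine le_trans ?_ (exp_term hk hu hn)
    exact mul_le_mul_of_nonneg_right (A_le_sq hA n) (Real.exp_pos _).le

lemma summable_TH (hA : LD A) {u : ℝ} (hu : 0 < u) :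
    Summable (fun n : ℕ => (A n : ℝ) * Real.exp (-Real.pi * n * u)) :=
  Summable.of_norm_bounded (summable_Z2.mul_left _) (term_le hA le_rfl hu)

/-- polynomial decay of any order -/
lemma TH_le (hA : LD A) {k : ℕ} (hk : 4 ≤ k) {u : ℝ} (hu : 0 < u) :
    |TH A u| ≤ KK k / u ^ k := by
  unfold TH
  rw [abs_mul, abs_of_pos (by norm_num : (0 : ℝ) < 4)]
  have h1 := tsum_of_norm_bounded (summable_Z2.mul_left _).hasSum (term_le hA hk hu)
  rw [tsum_mul_left, Real.norm_eq_abs] at h1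
  calc 4 * |∑' n : ℕ, (A n : ℝ) * Real.exp (-Real.pi * n * u)|
      ≤ 4 * ((k.factorial : ℝ) / u ^ k * Z2) := by
        unfold Z2; gcongr
    _ = KK k / u ^ k := by unfold KK; ring

lemma continuousOn_TH (hA : LD A) : ContinuousOn (TH A) (Ioi 0) := by
  intro u hu
  have hu0 : (0 : ℝ) < u := hu
  apply ContinuousAt.continuousWithinAt
  have h1 : ContinuousOn (fun u : ℝ => ∑' n : ℕ, (A n : ℝ) *
      Real.exp (-Real.pi * n * u)) (Ioi (u / 2)) := by
    refine continuousOn_tsum (u := fun n : ℕ => ‖(A n : ℝ) * Real.exp (-Real.pi * n * (u / 2))‖)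
      ?_ (summable_TH hA (by positivity)).norm ?_
    · intro n
      fun_prop
    · intro n x hx
      rw [norm_mul, norm_mul, Real.norm_of_nonneg (Real.exp_pos _).le,
        Real.norm_of_nonneg (Real.exp_pos _).le]
      have hx' : u / 2 ≤ x := (le_of_lt hx)
      apply mul_le_mul_of_nonneg_left _ (norm_nonneg _)
      apply Real.exp_le_exp.2
      have : (0 : ℝ) ≤ Real.pi * n := by positivity
      nlinarith
  have h2 : ContinuousOn (TH A) (Ioi (u / 2)) := by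
    unfold TH
    exact continuousOn_const.mul h1
  exact h2.continuousAt (Ioi_mem_nhds (by linarith))

/-- decay at `0` of any order -/
lemma TH_zero (hA : LD A) (hF : FEq A q κ) {k : ℕ} (hk : 4 ≤ k) {u : ℝ} (hu : 0 < u) :
    |TH A u| ≤ KK k * q ^ (k - 1) * u ^ (k - 2) := by
  obtain ⟨hq, hκ, hfe⟩ := hF
  have hκ1 : |κ| = 1 := by rcases hκ with h | h <;> rw [h] <;> simp
  have hw : 0 < 1 / (q * u) := by positivity
  rw [hfe u hu, abs_mul, abs_div, hκ1, abs_of_pos (by positivity : 0 < q * u ^ 2)]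
  have h1 := TH_le hA hk hw
  obtain ⟨j, rfl⟩ : ∃ j, k = j + 2 := ⟨k - 2, by omega⟩
  have e : (1 / (q * u)) ^ (j + 2) = 1 / (q * u) ^ (j + 2) := by rw [div_pow, one_pow]
  rw [e] at h1
  calc 1 / (q * u ^ 2) * |TH A (1 / (q * u))|
      ≤ 1 / (q * u ^ 2) * (KK (j + 2) / (1 / (q * u) ^ (j + 2))) := by gcongr
    _ = KK (j + 2) * q ^ (j + 2 - 1) * u ^ (j + 2 - 2) := by
      rw [show j + 2 - 1 = j + 1 by omega, show j + 2 - 2 = j by omega]
      field_simp
      ring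

/-- a uniform bound for `TH A` -/
lemma TH_unif (hA : LD A) (hF : FEq A q κ) {u : ℝ} (hu : 0 < u) :
    |TH A u| ≤ KK 6 * (1 + q) ^ 3 := by
  have hq := hF.1
  have h1 := TH_zero hA hF (k := 6) (by norm_num) hu
  have h2 := TH_le hA (k := 4) le_rfl hu
  have h3 : KK 4 ≤ KK 6 := KK_mono (by norm_num)
  have h4 := KK_ge 6
  norm_num at h1
  have h5 : |TH A u| * |TH A u| ≤ (KK 6 * (1 + q) ^ 3) * (KK 6 * (1 + q) ^ 3) := by
    calc |TH A u| * |TH A u| ≤ (KK 6 * q ^ 5 * u ^ 4) * (KK 4 / u ^ 4) := by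
          apply mul_le_mul h1 h2 (abs_nonneg _) (by positivity)
      _ = KK 6 * KK 4 * q ^ 5 := by field_simp
      _ ≤ KK 6 * KK 6 * (1 + q) ^ 6 := by
          have h6 : q ^ 5 ≤ (1 + q) ^ 6 := by
            calc q ^ 5 ≤ (1 + q) ^ 5 := by gcongr; linarith
              _ ≤ (1 + q) ^ 6 := pow_le_pow_right₀ (by linarith) (by norm_num)
          gcongr
      _ = _ := by ring
  exact (mul_self_le_mul_self_iff (abs_nonneg _) (by positivity)).2 h5

/-! ### the Mellin transform -/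

/-- the completed `L`-function -/
noncomputable def PhiA (A : ℕ → ℤ) : ℂ → ℂ := mellin (fun u : ℝ => ((TH A u : ℝ) : ℂ))

lemma TH_locInt (hA : LD A) : LocallyIntegrableOn (fun u : ℝ => ((TH A u : ℝ) : ℂ)) (Ioi 0) :=
  (Complex.continuous_ofReal.comp_continuousOn (continuousOn_TH hA)).locallyIntegrableOn
    measurableSet_Ioi

lemma TH_top (hA : LD A) (k : ℕ) :
    (fun u : ℝ => ((TH A u : ℝ) : ℂ)) =O[atTop] (· ^ (-(k : ℝ))) := by
  apply IsBigO.of_bound (KK (k + 4))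
  filter_upwards [eventually_ge_atTop (1 : ℝ)] with u hu
  have hu0 : 0 < u := by linarith
  rw [Complex.norm_real, Real.norm_eq_abs, Real.norm_of_nonneg (by positivity),
    Real.rpow_neg hu0.le, Real.rpow_natCast, ← div_eq_mul_inv]
  refine (TH_le hA (k := k + 4) (by omega) hu0).trans ?_
  have h1 : u ^ k ≤ u ^ (k + 4) := pow_le_pow_right₀ hu (by omega)
  have h2 : 0 ≤ KK (k + 4) := zero_le_one.trans (KK_ge _)
  gcongr

lemma TH_bot (hA : LD A) (hF : FEq A q κ) (k : ℕ) :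
    (fun u : ℝ => ((TH A u : ℝ) : ℂ)) =O[𝓝[>] 0] (· ^ (-(-(k : ℝ)))) := by
  apply IsBigO.of_bound (KK (k + 4) * q ^ (k + 3))
  have h0 : Ioc (0 : ℝ) 1 ∈ 𝓝[>] (0 : ℝ) := Ioc_mem_nhdsGT one_pos
  filter_upwards [h0] with u hu
  have hu0 : 0 < u := hu.1
  have hq := hF.1
  rw [Complex.norm_real, Real.norm_eq_abs, Real.norm_of_nonneg (by positivity), neg_neg,
    Real.rpow_natCast]
  have h1 := TH_zero hA hF (k := k + 4) (by omega) hu0
  rw [show k + 4 - 1 = k + 3 by omega, show k + 4 - 2 = k + 2 by omega] at h1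
  refine h1.trans ?_
  have h2 : u ^ (k + 2) ≤ u ^ k := pow_le_pow_of_le_one hu0.le hu.2 (by omega)
  have h3 : 0 ≤ KK (k + 4) := zero_le_one.trans (KK_ge _)
  gcongr

lemma PhiA_diff (hA : LD A) (hF : FEq A q κ) : Differentiable ℂ (PhiA A) := by
  intro s
  obtain ⟨k, hk⟩ := exists_nat_gt |s.re|
  have h := abs_lt.1 hk
  exact mellin_differentiableAt_of_isBigO_rpow (TH_locInt hA) (TH_top hA k) h.2
    (TH_bot hA hF k) h.1

lemma PhiA_conv (hA : LD A) (hF : FEq A q κ) (s : ℂ) :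
    MellinConvergent (fun u : ℝ => ((TH A u : ℝ) : ℂ)) s := by
  obtain ⟨k, hk⟩ := exists_nat_gt |s.re|
  have h := abs_lt.1 hk
  exact mellinConvergent_of_isBigO_rpow (TH_locInt hA) (TH_top hA k) h.2
    (TH_bot hA hF k) h.1

/-- the functional equation -/
lemma PhiA_fe (hF : FEq A q κ) (s : ℂ) :
    PhiA A (2 - s) = (κ : ℂ) * (q : ℂ) ^ (s - 1) * PhiA A s := by
  obtain ⟨hq, hκ, hfe⟩ := hF
  have hq0 : (q : ℂ) ≠ 0 := by exact_mod_cast hq.ne'
  have hqi : 0 < q⁻¹ := inv_pos.2 hq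
  set f : ℝ → ℂ := fun u => ((TH A u : ℝ) : ℂ) with hf
  set g : ℝ → ℂ := fun v => f (q⁻¹ * v) with hg
  have h1 : PhiA A (2 - s) = mellin (fun u : ℝ => ((κ : ℂ) / q) • ((u : ℂ) ^ (-2 : ℂ) • g u⁻¹))
      (2 - s) := by
    unfold PhiA mellin
    refine setIntegral_congr_fun measurableSet_Ioi fun u hu => ?_
    have hu0 : (0 : ℝ) < u := hu
    simp only
    congr 1
    rw [hfe u hu0, hg, hf]
    simp only
    have e1 : 1 / (q * u) = q⁻¹ * u⁻¹ := by field_simp
    rw [e1]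
    have e2 : (u : ℂ) ^ (-2 : ℂ) = ((u : ℂ) ^ 2)⁻¹ := by
      rw [Complex.cpow_neg]
      norm_cast
    rw [e2, smul_eq_mul, smul_eq_mul]
    push_cast
    have hu1 : (u : ℂ) ≠ 0 := by exact_mod_cast hu0.ne'
    field_simp
  rw [h1, mellin_const_smul, mellin_cpow_smul, show (2 - s + -2 : ℂ) = -s by ring,
    mellin_comp_inv, neg_neg, hg, mellin_comp_mul_left f s hqi, smul_eq_mul, smul_eq_mul,
    ← mul_assoc]
  unfold PhiA
  congr 1
  rw [Complex.ofReal_inv, Complex.inv_cpow _ _ (by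
    rw [Complex.arg_ofReal_of_nonneg hq.le]; exact Real.pi_pos.ne), Complex.cpow_neg, inv_inv,
    Complex.cpow_sub _ _ hq0, Complex.cpow_one]
  ring

lemma PhiA_fe_norm (hF : FEq A q κ) (s : ℂ) :
    ‖PhiA A (2 - s)‖ = q ^ (s.re - 1) * ‖PhiA A s‖ := by
  have h := PhiA_fe hF s
  obtain ⟨hq, hκ, hfe⟩ := hF
  have hκ1 : ‖(κ : ℂ)‖ = 1 := by rcases hκ with h | h <;> rw [h] <;> simp
  rw [h, norm_mul, norm_mul, hκ1, one_mul, norm_cpow_eq_rpow_re_of_pos hq]
  simp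

/-! ### the Dirichlet series -/

lemma summable_dir (hA : LD A) {σ : ℝ} (hσ : 3 < σ) :
    Summable (fun n : ℕ => |(A n : ℝ)| / (n : ℝ) ^ σ) := by
  have h1 : Summable (fun n : ℕ => 1 / (n : ℝ) ^ (σ - 2)) :=
    Real.summable_one_div_nat_rpow.2 (by linarith)
  refine h1.of_nonneg_of_le (fun n => by positivity) (fun n => ?_)
  rcases Nat.eq_zero_or_pos n with rfl | hn
  · rw [hA.zero]; simp; positivity
  · have hn0 : (0 : ℝ) < n := by exact_mod_cast hn
    rw [div_le_div_iff₀ (by positivity) (by positivity), one_mul, Real.rpow_sub hn0,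
      Real.rpow_two]
    have h2 := A_le_sq hA n
    calc |(A n : ℝ)| * ((n : ℝ) ^ σ / (n : ℝ) ^ 2) ≤ (n : ℝ) ^ 2 * ((n : ℝ) ^ σ / (n : ℝ) ^ 2) := by
          gcongr
      _ = (n : ℝ) ^ σ := by field_simp

lemma PhiA_series (hA : LD A) {s : ℂ} (hs : 3 < s.re) :
    HasSum (fun n : ℕ => 4 * Complex.Gamma s * (Real.pi : ℂ) ^ (-s) *
      ((A n : ℂ) / (n : ℂ) ^ s)) (PhiA A s) := by
  have h1 := hasSum_mellin (a := fun n : ℕ => (4 * (A n : ℂ)))
    (p := fun n : ℕ => Real.pi * n) (F := fun u : ℝ => ((TH A u : ℝ) : ℂ)) (s := s) ?_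
    (by linarith) ?_ ?_
  · have e : (fun n : ℕ => 4 * Complex.Gamma s * (Real.pi : ℂ) ^ (-s) *
        ((A n : ℂ) / (n : ℂ) ^ s)) =
        fun n : ℕ => Complex.Gamma s * (4 * (A n : ℂ)) / ((Real.pi * n : ℝ) : ℂ) ^ s := by
      ext n
      rcases Nat.eq_zero_or_pos n with rfl | hn
      · rw [hA.zero]
        simp
      · have hn0 : (0 : ℝ) < n := by exact_mod_cast hn
        have e1 : ((Real.pi * n : ℝ) : ℂ) ^ s = (Real.pi : ℂ) ^ s * (n : ℂ) ^ s := by
          rw [Complex.ofReal_mul, mul_cpow_ofReal_nonneg Real.pi_pos.le hn0.le]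
          norm_cast
        have e2 : (Real.pi : ℂ) ^ s ≠ 0 := by
          rw [Ne, cpow_eq_zero_iff]
          have := Real.pi_ne_zero
          simp [this]
        have e3 : (n : ℂ) ^ s ≠ 0 := by
          rw [Ne, cpow_eq_zero_iff]
          have := hn.ne'
          simp [this]
        rw [e1, Complex.cpow_neg]
        field_simp
    rw [e]
    exact h1
  · intro n
    rcases Nat.eq_zero_or_pos n with rfl | hn
    · left
      rw [hA.zero]; simp
    · right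
      have : (0 : ℝ) < n := by exact_mod_cast hn
      positivity
  · intro u hu
    have h2 := ((summable_TH hA hu).hasSum.mul_left 4)
    have h3 := Complex.hasSum_ofReal.2 h2
    have e : (fun n : ℕ => (4 * (A n : ℂ)) * ((Real.exp (-(Real.pi * n) * u) : ℝ) : ℂ)) =
        fun n : ℕ => ((4 * ((A n : ℝ) * Real.exp (-Real.pi * n * u)) : ℝ) : ℂ) := by
      ext n
      push_cast
      have : (-(Real.pi : ℂ) * n * u) = -((Real.pi : ℂ) * n) * u := by ring
      rw [this]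
      ring
    rw [e]
    exact h3
  · have h2 := (summable_dir hA hs).mul_left (4 / Real.pi ^ s.re)
    refine h2.congr fun n => ?_
    rcases Nat.eq_zero_or_pos n with rfl | hn
    · rw [hA.zero]
      simp
    · have hn0 : (0 : ℝ) < n := by exact_mod_cast hn
      rw [Real.mul_rpow Real.pi_pos.le hn0.le, norm_mul, Complex.norm_intCast]
      have : ‖(4 : ℂ)‖ = 4 := by simp
      rw [this]
      field_simp

end Rk
end P004G
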